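import Mathlib

namespace Vale.Agent.Results.P045.LocallySparse

open Finset

/-- A maximal matching for the relation `v ≠ w ∧ ¬ G.Adj v w` on a finite type. -/
theorem exists_maximal_matching {W : Type*} [Fintype W] (G : SimpleGraph W) :
    ∃ (M : Finset (W × W)),
      (∀ e ∈ M, e.1 ≠ e.2 ∧ ¬ G.Adj e.1 e.2) ∧
      (∀ e ∈ M, ∀ e' ∈ M, e ≠ e' → e.1 ≠ e'.1 ∧ e.1 ≠ e'.2 ∧ e.2 ≠ e'.1 ∧ e.2 ≠ e'.2) ∧
      (∀ v w, v ≠ w → ¬ G.Adj v w →
        (∃ e ∈ M, e.1 = v ∨ e.2 = v) ∨ (∃ e ∈ M, e.1 = w ∨ e.2 = w)) := by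
  classical
  let P : Finset (W × W) → Prop := fun M =>
    (∀ e ∈ M, e.1 ≠ e.2 ∧ ¬ G.Adj e.1 e.2) ∧
    (∀ e ∈ M, ∀ e' ∈ M, e ≠ e' → e.1 ≠ e'.1 ∧ e.1 ≠ e'.2 ∧ e.2 ≠ e'.1 ∧ e.2 ≠ e'.2)
  have hne : (univ.filter P).Nonempty := ⟨∅, by simp [P]⟩
  obtain ⟨M, hM, hmax⟩ := Finset.exists_max_image (univ.filter P) Finset.card hne
  have hPM : P M := (Finset.mem_filter.1 hM).2
  refine ⟨M, hPM.1, hPM.2, ?_⟩
  intro v w hvw hna
  by_contra hcon
  simp only [not_or, not_exists, not_and] at hcon
  obtain ⟨hv, hw⟩ := hcon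
  have hnot : (v, w) ∉ M := fun h => (hv _ h).1 rfl
  have hP' : P (insert (v, w) M) := by
    constructor
    · intro e he
      rcases Finset.mem_insert.1 he with rfl | he
      · exact ⟨hvw, hna⟩
      · exact hPM.1 e he
    · intro e he e' he' hee'
      rcases Finset.mem_insert.1 he with rfl | he <;> rcases Finset.mem_insert.1 he' with rfl | he'
      · exact absurd rfl hee'
      · exact ⟨fun h => (hv e' he').1 h.symm, fun h => (hv e' he').2 h.symm,
          fun h => (hw e' he').1 h.symm, fun h => (hw e' he').2 h.symm⟩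
      · exact ⟨(hv e he).1, (hw e he).1, (hv e he).2, (hw e he).2⟩
      · exact hPM.2 e he e' he' hee'
  have := hmax (insert (v, w) M) (Finset.mem_filter.2 ⟨Finset.mem_univ _, hP'⟩)
  rw [Finset.card_insert_of_notMem hnot] at this
  omega

/-- A maximal family of pairwise disjoint edges dominates all edges. -/
theorem exists_maximal_disjoint {V : Type*} [DecidableEq V] (E : Finset (Finset V)) :
    ∃ M ⊆ E, (∀ e ∈ M, ∀ f ∈ M, e ≠ f → Disjoint e f) ∧
      ∀ e ∈ E, ∃ f ∈ M, f = e ∨ ¬ Disjoint f e := by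
  classical
  let P : Finset (Finset V) → Prop := fun M => ∀ e ∈ M, ∀ f ∈ M, e ≠ f → Disjoint e f
  have hne : (E.powerset.filter P).Nonempty := ⟨∅, by simp [P]⟩
  obtain ⟨M, hM, hmax⟩ := Finset.exists_max_image (E.powerset.filter P) Finset.card hne
  have hME : M ⊆ E := Finset.mem_powerset.1 (Finset.mem_filter.1 hM).1
  have hPM : P M := (Finset.mem_filter.1 hM).2
  refine ⟨M, hME, hPM, ?_⟩
  intro e he
  by_contra hcon
  simp only [not_exists, not_and, not_or, not_not] at hcon
  have hnot : e ∉ M := fun h => (hcon e h).1 rfl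
  have hP' : P (insert e M) := by
    intro a ha b hb hab
    rcases Finset.mem_insert.1 ha with ha | ha <;> rcases Finset.mem_insert.1 hb with hb | hb
    · exact absurd (ha.trans hb.symm) hab
    · rw [ha]; exact (hcon b hb).2.symm
    · rw [hb]; exact (hcon a ha).2
    · exact hPM a ha b hb hab
  have := hmax (insert e M) (Finset.mem_filter.2
    ⟨Finset.mem_powerset.2 (Finset.insert_subset he hME), hP'⟩)
  rw [Finset.card_insert_of_notMem hnot] at this
  omega

/-- **Ryser's inequality for locally sparse hypergraphs.**  Let `E` be (the edge set of) a finite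
`r`-uniform hypergraph in which every edge meets at most `D` other edges, where `D + 4 ≤ 2 r`.
Then there are a vertex cover `C` and a matching `M` with `|C| ≤ (r - 1) |M|`;
hence `tau ≤ (r - 1) nu`. -/
theorem result {V : Type*} [DecidableEq V] (E : Finset (Finset V)) (r D : ℕ)
    (hunif : ∀ e ∈ E, e.card = r)
    (hD : ∀ e ∈ E, (E.filter (fun f => f ≠ e ∧ ¬ Disjoint e f)).card ≤ D)
    (hDr : D + 4 ≤ 2 * r) :
    ∃ C : Finset V, (∀ e ∈ E, (e ∩ C).Nonempty) ∧
      ∃ M ⊆ E, (∀ e ∈ M, ∀ f ∈ M, e ≠ f → Disjoint e f) ∧ C.card ≤ (r - 1) * M.card := by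
  classical
  obtain ⟨r', rfl⟩ : ∃ r', r = r' + 2 := ⟨r - 2, by omega⟩
  -- the disjointness graph on the edges
  let G : SimpleGraph E :=
    { Adj := fun e f => e ≠ f ∧ Disjoint e.1 f.1
      symm := ⟨fun e f h => ⟨h.1.symm, h.2.symm⟩⟩
      loopless := ⟨fun e h => h.1 rfl⟩ }
  obtain ⟨P, hP1, hP2, hP3⟩ := exists_maximal_matching G
  have hint : ∀ p ∈ P, ¬ Disjoint p.1.1 p.2.1 := fun p hp hd => (hP1 p hp).2 ⟨(hP1 p hp).1, hd⟩
  let Cov : Finset E := P.image Prod.fst ∪ P.image Prod.snd
  let U : Finset E := univ \ Cov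
  have hcov : Cov.card = 2 * P.card := by
    have h1 : (P.image Prod.fst).card = P.card := by
      apply Finset.card_image_of_injOn
      intro p hp q hq h
      by_contra hne
      exact (hP2 p hp q hq hne).1 h
    have h2 : (P.image Prod.snd).card = P.card := by
      apply Finset.card_image_of_injOn
      intro p hp q hq h
      by_contra hne
      exact (hP2 p hp q hq hne).2.2.2 h
    have h3 : Disjoint (P.image Prod.fst) (P.image Prod.snd) := by
      rw [Finset.disjoint_left]
      intro x hx hx'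
      obtain ⟨p, hp, rfl⟩ := Finset.mem_image.1 hx
      obtain ⟨q, hq, hq'⟩ := Finset.mem_image.1 hx'
      by_cases hpq : p = q
      · subst hpq; exact (hP1 p hp).1 hq'.symm
      · exact (hP2 p hp q hq hpq).2.1 hq'.symm
    rw [Finset.card_union_of_disjoint h3, h1, h2]; ring
  have hU : U.card + 2 * P.card = E.card := by
    have := Finset.card_sdiff_add_card_eq_card (Finset.subset_univ Cov)
    rw [hcov, Finset.card_univ, Fintype.card_coe] at this
    exact this
  -- the cover
  have hne : ∀ e : E, e.1.Nonempty := by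
    intro e
    rw [← Finset.card_pos, hunif e.1 e.2]; omega
  let c1 : {p // p ∈ P} → V := fun p => (Finset.not_disjoint_iff.1 (hint p.1 p.2)).choose
  have hc1 : ∀ p : {p // p ∈ P}, c1 p ∈ p.1.1.1 ∧ c1 p ∈ p.1.2.1 :=
    fun p => (Finset.not_disjoint_iff.1 (hint p.1 p.2)).choose_spec
  let c2 : E → V := fun e => (hne e).choose
  have hc2 : ∀ e : E, c2 e ∈ e.1 := fun e => (hne e).choose_spec
  let C : Finset V := P.attach.image c1 ∪ U.image c2
  have hCcard : C.card ≤ P.card + U.card := by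
    calc C.card ≤ (P.attach.image c1).card + (U.image c2).card := Finset.card_union_le _ _
      _ ≤ P.attach.card + U.card := add_le_add Finset.card_image_le Finset.card_image_le
      _ = P.card + U.card := by rw [Finset.card_attach]
  have hCcov : ∀ e ∈ E, (e ∩ C).Nonempty := by
    intro e he
    by_cases hc : (⟨e, he⟩ : E) ∈ Cov
    · rcases Finset.mem_union.1 hc with h | h
      · obtain ⟨p, hp, hpe⟩ := Finset.mem_image.1 h
        refine ⟨c1 ⟨p, hp⟩, Finset.mem_inter.2 ⟨?_, ?_⟩⟩
        · have := (hc1 ⟨p, hp⟩).1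
          rw [hpe] at this; exact this
        · exact Finset.mem_union_left _ (Finset.mem_image.2 ⟨⟨p, hp⟩, Finset.mem_attach _ _, rfl⟩)
      · obtain ⟨p, hp, hpe⟩ := Finset.mem_image.1 h
        refine ⟨c1 ⟨p, hp⟩, Finset.mem_inter.2 ⟨?_, ?_⟩⟩
        · have := (hc1 ⟨p, hp⟩).2
          rw [hpe] at this; exact this
        · exact Finset.mem_union_left _ (Finset.mem_image.2 ⟨⟨p, hp⟩, Finset.mem_attach _ _, rfl⟩)
    · refine ⟨c2 ⟨e, he⟩, Finset.mem_inter.2 ⟨hc2 ⟨e, he⟩, ?_⟩⟩
      exact Finset.mem_union_right _ (Finset.mem_image.2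
        ⟨⟨e, he⟩, Finset.mem_sdiff.2 ⟨Finset.mem_univ _, hc⟩, rfl⟩)
  refine ⟨C, hCcov, ?_⟩
  by_cases hcase : P.card ≤ r' * U.card
  · -- the unmatched edges form a matching
    refine ⟨U.image Subtype.val, ?_, ?_, ?_⟩
    · intro e he
      obtain ⟨x, _, rfl⟩ := Finset.mem_image.1 he
      exact x.2
    · intro e he f hf hef
      obtain ⟨x, hx, rfl⟩ := Finset.mem_image.1 he
      obtain ⟨y, hy, rfl⟩ := Finset.mem_image.1 hf
      by_contra hd
      have hxy : x ≠ y := fun h => hef (by rw [h])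
      have hx' : x ∉ Cov := (Finset.mem_sdiff.1 hx).2
      have hy' : y ∉ Cov := (Finset.mem_sdiff.1 hy).2
      rcases hP3 x y hxy (fun h => hd h.2) with ⟨p, hp, h | h⟩ | ⟨p, hp, h | h⟩
      · exact hx' (Finset.mem_union_left _ (Finset.mem_image.2 ⟨p, hp, h⟩))
      · exact hx' (Finset.mem_union_right _ (Finset.mem_image.2 ⟨p, hp, h⟩))
      · exact hy' (Finset.mem_union_left _ (Finset.mem_image.2 ⟨p, hp, h⟩))
      · exact hy' (Finset.mem_union_right _ (Finset.mem_image.2 ⟨p, hp, h⟩))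
    · rw [Finset.card_image_of_injective _ Subtype.val_injective]
      have : r' + 2 - 1 = r' + 1 := by omega
      rw [this]
      nlinarith
  · obtain ⟨M, hME, hMd, hMdom⟩ := exists_maximal_disjoint E
    refine ⟨M, hME, hMd, ?_⟩
    have hcount : E.card ≤ M.card * (D + 1) := by
      have hsub : E ⊆ M.biUnion (fun f => insert f (E.filter (fun g => g ≠ f ∧ ¬ Disjoint f g))) := by
        intro e he
        obtain ⟨f, hf, h | h⟩ := hMdom e he
        · exact Finset.mem_biUnion.2 ⟨f, hf, by rw [h]; exact Finset.mem_insert_self _ _⟩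
        · by_cases hef : e = f
          · exact Finset.mem_biUnion.2 ⟨f, hf, by rw [hef]; exact Finset.mem_insert_self _ _⟩
          · exact Finset.mem_biUnion.2 ⟨f, hf, Finset.mem_insert_of_mem
              (Finset.mem_filter.2 ⟨he, hef, h⟩)⟩
      calc E.card ≤ _ := Finset.card_le_card hsub
        _ ≤ M.card * (D + 1) := by
          apply Finset.card_biUnion_le_card_mul
          intro f hf
          exact (Finset.card_insert_le _ _).trans (Nat.succ_le_succ (hD f (hME hf)))
    have : r' + 2 - 1 = r' + 1 := by omega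
    rw [this]
    have hD' : D ≤ 2 * r' := by omega
    by_contra hlt
    have hlt' : (r' + 1) * M.card < P.card + U.card := by omega
    have hc' : r' * U.card < P.card := by omega
    have h1 : (r' + 1) * (U.card + 2 * P.card) ≤ (r' + 1) * (M.card * (D + 1)) :=
      Nat.mul_le_mul_left _ (hU ▸ hcount)
    have h2 : (r' + 1) * (M.card * (D + 1)) ≤ (P.card + U.card) * (2 * r' + 1) := by
      calc (r' + 1) * (M.card * (D + 1)) = ((r' + 1) * M.card) * (D + 1) := by ring
        _ ≤ (P.card + U.card) * (2 * r' + 1) := Nat.mul_le_mul hlt'.le (by omega)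
    nlinarith

end Vale.Agent.Results.P045.LocallySparse
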